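import Vale.Agent.P252.H392.Geo

/-! Rules for the operator `L f = u^{ij} f_ij`, and the affine maximal equation in the form
`L ℓ = θ ⟨∇ℓ, ∇ℓ⟩`, `θ = (n+1)/(n+2)`. -/

open scoped ContDiff Topology
open Filter

namespace Vale.Agent.P252.C

variable {n : ℕ} {u : EuclideanSpace ℝ (Fin n) → ℝ} {x : EuclideanSpace ℝ (Fin n)}

lemma Sm.ev_da {f : EuclideanSpace ℝ (Fin n) → ℝ} {x : EuclideanSpace ℝ (Fin n)} (h : Sm f x) :
    ∀ᶠ y in 𝓝 x, DifferentiableAt ℝ f y := h.ev

/-! #### Second derivatives -/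

lemma hess_add {f g : EuclideanSpace ℝ (Fin n) → ℝ} (hf : Sm f x) (hg : Sm g x) (i j : Fin n) :
    hess (fun y => f y + g y) x i j = hess f x i j + hess g x i j := by
  have h : pd j (fun y => f y + g y) =ᶠ[𝓝 x] fun y => pd j f y + pd j g y := by
    filter_upwards [hf.ev, hg.ev] with y h1 h2
    exact pd_add j h1 h2
  rw [hess_apply, pd_congr h i, pd_add i (hf.pd j).da (hg.pd j).da]
  rfl

lemma hess_sub {f g : EuclideanSpace ℝ (Fin n) → ℝ} (hf : Sm f x) (hg : Sm g x) (i j : Fin n) :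
    hess (fun y => f y - g y) x i j = hess f x i j - hess g x i j := by
  have h : pd j (fun y => f y - g y) =ᶠ[𝓝 x] fun y => pd j f y - pd j g y := by
    filter_upwards [hf.ev, hg.ev] with y h1 h2
    exact pd_sub j h1 h2
  rw [hess_apply, pd_congr h i, pd_sub i (hf.pd j).da (hg.pd j).da]
  rfl

lemma hess_const_mul {f : EuclideanSpace ℝ (Fin n) → ℝ} (c : ℝ) (hf : Sm f x) (i j : Fin n) :
    hess (fun y => c * f y) x i j = c * hess f x i j := by
  have h : pd j (fun y => c * f y) =ᶠ[𝓝 x] fun y => c * pd j f y := by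
    filter_upwards [hf.ev] with y h1
    exact pd_const_mul j c h1
  rw [hess_apply, pd_congr h i, pd_const_mul i c (hf.pd j).da]
  rfl

lemma hess_const (c : ℝ) (x : EuclideanSpace ℝ (Fin n)) (i j : Fin n) :
    hess (fun _ => c) x i j = 0 := by
  have h : pd j (fun _ : EuclideanSpace ℝ (Fin n) => c) = fun _ => 0 := by
    funext y; exact pd_const j c y
  rw [hess_apply, h, pd_const]

lemma hess_coord (k : Fin n) (x : EuclideanSpace ℝ (Fin n)) (i j : Fin n) :
    hess (fun y : EuclideanSpace ℝ (Fin n) => y k) x i j = 0 := by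
  have h : pd j (fun y : EuclideanSpace ℝ (Fin n) => y k) = fun _ => if j = k then 1 else 0 := by
    funext y; exact pd_coord j k y
  rw [hess_apply, h, pd_const]

lemma hess_mul {f g : EuclideanSpace ℝ (Fin n) → ℝ} (hf : Sm f x) (hg : Sm g x) (i j : Fin n) :
    hess (fun y => f y * g y) x i j = hess f x i j * g x + f x * hess g x i j +
      pd i f x * pd j g x + pd j f x * pd i g x := by
  have h : pd j (fun y => f y * g y) =ᶠ[𝓝 x] fun y => pd j f y * g y + f y * pd j g y := by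
    filter_upwards [hf.ev, hg.ev] with y h1 h2
    exact pd_mul j h1 h2
  rw [hess_apply, pd_congr h i, pd_add i ((hf.pd j).da.fun_mul hg.da)
    (hf.da.fun_mul (hg.pd j).da), pd_mul i (hf.pd j).da hg.da, pd_mul i hf.da (hg.pd j).da,
    hess_apply, hess_apply]
  ring

/-- Second derivatives of a composite `φ ∘ f`; `φ₁, φ₂` are the first two derivatives. -/
lemma hess_comp {f : EuclideanSpace ℝ (Fin n) → ℝ} {φ φ₁ : ℝ → ℝ} {φ₂ : ℝ} (hf : Sm f x)
    (h1 : ∀ᶠ s in 𝓝 (f x), HasDerivAt φ (φ₁ s) s) (h2 : HasDerivAt φ₁ φ₂ (f x)) (i j : Fin n) :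
    hess (fun y => φ (f y)) x i j = φ₁ (f x) * hess f x i j + φ₂ * (pd i f x * pd j f x) := by
  have h : pd j (fun y => φ (f y)) =ᶠ[𝓝 x] fun y => φ₁ (f y) * pd j f y := by
    filter_upwards [hf.ev, hf.continuousAt.eventually h1] with y h3 h4
    exact pd_comp j h4 h3
  have h5 : DifferentiableAt ℝ (fun y => φ₁ (f y)) x := h2.differentiableAt.comp x hf.da
  rw [hess_apply, pd_congr h i, pd_mul i h5 (hf.pd j).da, pd_comp i h2 hf.da, hess_apply]
  ring

/-! #### The operator `Lo` -/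

lemma Lo_congr {f g : EuclideanSpace ℝ (Fin n) → ℝ} (h : f =ᶠ[𝓝 x] g) : Lo u f x = Lo u g x := by
  unfold Lo
  rw [hess_congr h]

lemma Lo_add {f g : EuclideanSpace ℝ (Fin n) → ℝ} (hf : Sm f x) (hg : Sm g x) :
    Lo u (fun y => f y + g y) x = Lo u f x + Lo u g x := by
  unfold Lo
  simp only [hess_add hf hg, mul_add, Finset.sum_add_distrib]

lemma Lo_sub {f g : EuclideanSpace ℝ (Fin n) → ℝ} (hf : Sm f x) (hg : Sm g x) :
    Lo u (fun y => f y - g y) x = Lo u f x - Lo u g x := by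
  unfold Lo
  simp only [hess_sub hf hg, mul_sub, Finset.sum_sub_distrib]

lemma Lo_const_mul {f : EuclideanSpace ℝ (Fin n) → ℝ} (c : ℝ) (hf : Sm f x) :
    Lo u (fun y => c * f y) x = c * Lo u f x := by
  unfold Lo
  simp only [hess_const_mul c hf, Finset.mul_sum]
  refine Finset.sum_congr rfl fun i _ => Finset.sum_congr rfl fun j _ => ?_
  ring

lemma Lo_const (c : ℝ) : Lo u (fun _ => c) x = 0 := by
  unfold Lo
  simp [hess_const]

lemma Lo_coord (k : Fin n) : Lo u (fun y : EuclideanSpace ℝ (Fin n) => y k) x = 0 := by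
  unfold Lo
  simp [hess_coord]

lemma Lo_mul (hu : Sm u x) {f g : EuclideanSpace ℝ (Fin n) → ℝ} (hf : Sm f x) (hg : Sm g x) :
    Lo u (fun y => f y * g y) x =
      Lo u f x * g x + f x * Lo u g x + 2 * ip u x (gr f x) (gr g x) := by
  have h1 : 2 * ip u x (gr f x) (gr g x) = ip u x (gr f x) (gr g x) + ip u x (gr g x) (gr f x) := by
    rw [ip_comm hu (gr g x)]; ring
  rw [h1]
  unfold Lo ip
  simp only [hess_mul hf hg, mul_add, Finset.sum_add_distrib, gr_apply, Finset.sum_mul,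
    Finset.mul_sum]
  rw [← add_assoc]
  congr 1
  · congr 1
    · congr 1
      · refine Finset.sum_congr rfl fun i _ => Finset.sum_congr rfl fun j _ => ?_
        ring
      · refine Finset.sum_congr rfl fun i _ => Finset.sum_congr rfl fun j _ => ?_
        ring
    · refine Finset.sum_congr rfl fun i _ => Finset.sum_congr rfl fun j _ => ?_
      ring
  · refine Finset.sum_congr rfl fun i _ => Finset.sum_congr rfl fun j _ => ?_
    ring

lemma Lo_comp {f : EuclideanSpace ℝ (Fin n) → ℝ} {φ φ₁ : ℝ → ℝ} {φ₂ : ℝ} (hf : Sm f x)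
    (h1 : ∀ᶠ s in 𝓝 (f x), HasDerivAt φ (φ₁ s) s) (h2 : HasDerivAt φ₁ φ₂ (f x)) :
    Lo u (fun y => φ (f y)) x = φ₁ (f x) * Lo u f x + φ₂ * ip u x (gr f x) (gr f x) := by
  unfold Lo ip
  simp only [hess_comp hf h1 h2, mul_add, Finset.sum_add_distrib, Finset.mul_sum, gr_apply]
  congr 1
  · refine Finset.sum_congr rfl fun i _ => Finset.sum_congr rfl fun j _ => ?_
    ring
  · refine Finset.sum_congr rfl fun i _ => Finset.sum_congr rfl fun j _ => ?_
    ring

/-- `L (log f) = L f / f - |∇f|² / f²`. -/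
lemma Lo_log {f : EuclideanSpace ℝ (Fin n) → ℝ} (hf : Sm f x) (h0 : f x ≠ 0) :
    Lo u (fun y => Real.log (f y)) x =
      Lo u f x / f x - ip u x (gr f x) (gr f x) / f x ^ 2 := by
  have h1 : ∀ᶠ s in 𝓝 (f x), HasDerivAt Real.log (s⁻¹) s := by
    filter_upwards [isOpen_ne.mem_nhds h0] with s hs
    exact Real.hasDerivAt_log hs
  have h2 : HasDerivAt (fun s : ℝ => s⁻¹) (-(f x ^ 2)⁻¹) (f x) := hasDerivAt_inv h0
  rw [Lo_comp hf h1 h2]
  ring

/-- `L (exp f) = exp f (L f + |∇f|²)`. -/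
lemma Lo_exp {f : EuclideanSpace ℝ (Fin n) → ℝ} (hf : Sm f x) :
    Lo u (fun y => Real.exp (f y)) x =
      Real.exp (f x) * (Lo u f x + ip u x (gr f x) (gr f x)) := by
  have h1 : ∀ᶠ s in 𝓝 (f x), HasDerivAt Real.exp (Real.exp s) s :=
    Eventually.of_forall fun s => Real.hasDerivAt_exp s
  rw [Lo_comp hf h1 (Real.hasDerivAt_exp (f x))]
  ring

/-- `L u = n`. -/
lemma Lo_self (hu : Sm u x) (hd : (hess u x).det ≠ 0) : Lo u u x = n := by
  unfold Lo
  have h : ∀ i, ∑ j, (hess u x)⁻¹ i j * hess u x i j = 1 := by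
    intro i
    have := inv_mul_apply (u := u) (x := x) hd i i
    rw [if_pos rfl] at this
    rw [← this]
    refine Finset.sum_congr rfl fun j _ => ?_
    rw [hess_symm hu i j]
  rw [Finset.sum_congr rfl fun i _ => h i]
  simp

/-- `L u_k = ℓ_k`. -/
lemma Lo_pd (hu : Sm u x) (hd : (hess u x).det ≠ 0) (k : Fin n) :
    Lo u (pd k u) x = pd k (ell u) x := by
  rw [pd_ell hu hd k]
  unfold Lo
  refine Finset.sum_congr rfl fun i _ => Finset.sum_congr rfl fun j _ => ?_
  congr 1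
  -- `∂_i ∂_j ∂_k u = ∂_k ∂_i ∂_j u`
  have h1 : hess (pd k u) x i j = d3 u x i j k := rfl
  rw [h1, d3_symm23 hu i j k, d3_symm12 hu i k j]

/-! #### The affine maximal equation -/

lemma wfun_ev (hu : Sm u x) (hd : 0 < (hess u x).det) :
    wfun u =ᶠ[𝓝 x] fun y => Real.exp ((-((n : ℝ) + 1) / ((n : ℝ) + 2)) * ell u y) := by
  filter_upwards [(sm_hess_det hu).continuousAt.eventually (lt_mem_nhds hd)] with y hy
  unfold wfun ell
  rw [Real.rpow_def_of_pos hy, mul_comm]

/-- **(AM) in terms of `ℓ`**: `U^{ij} w_ij = 0` iff `L ℓ = θ ⟨∇ℓ, ∇ℓ⟩`. -/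
theorem am_iff (hu : Sm u x) (hd : 0 < (hess u x).det) :
    (∑ i, ∑ j, ((hess u x).det * (hess u x)⁻¹ i j) * pd i (pd j (wfun u)) x = 0) ↔
      Lo u (ell u) x = (((n : ℝ) + 1) / ((n : ℝ) + 2)) * ip u x (gr (ell u) x) (gr (ell u) x) := by
  set θ : ℝ := ((n : ℝ) + 1) / ((n : ℝ) + 2) with hθ
  have hn2 : (0 : ℝ) < (n : ℝ) + 2 := by positivity
  have hθ0 : 0 < θ := by rw [hθ]; positivity
  have e0 : (-((n : ℝ) + 1) / ((n : ℝ) + 2)) = -θ := by rw [hθ, neg_div]
  have hS := sm_ell hu hd.ne'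
  have e1 : ∑ i, ∑ j, ((hess u x).det * (hess u x)⁻¹ i j) * pd i (pd j (wfun u)) x =
      (hess u x).det * Lo u (wfun u) x := by
    unfold Lo
    rw [Finset.mul_sum]
    refine Finset.sum_congr rfl fun i _ => ?_
    rw [Finset.mul_sum]
    refine Finset.sum_congr rfl fun j _ => ?_
    rw [hess_apply]
    ring
  have e2 : Lo u (wfun u) x = Real.exp (-θ * ell u x) *
      (-θ * (Lo u (ell u) x - θ * ip u x (gr (ell u) x) (gr (ell u) x))) := by
    rw [Lo_congr (wfun_ev hu hd), e0]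
    have hc : Sm (fun y => -θ * ell u y) x := contDiffAt_const.mul hS
    rw [Lo_exp hc, Lo_const_mul _ hS]
    have e3 : gr (fun y => -θ * ell u y) x = (-θ) • gr (ell u) x := by
      funext i
      simp only [gr_apply, Pi.smul_apply, smul_eq_mul]
      exact pd_const_mul i _ hS.da
    rw [e3, ip_smul_left, ip_smul_right]
    ring
  rw [e1, e2]
  constructor
  · intro h
    have h1 := (mul_eq_zero.mp h).resolve_left hd.ne'
    have h2 := (mul_eq_zero.mp h1).resolve_left (Real.exp_ne_zero _)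
    have h3 := (mul_eq_zero.mp h2).resolve_left (neg_ne_zero.mpr hθ0.ne')
    linarith
  · intro h
    rw [h]
    ring

/-- The affine maximal equation on `Ω`, in terms of `ℓ`. -/
theorem am_Lo {Ω : Set (EuclideanSpace ℝ (Fin n))} (hΩ : IsOpen Ω) (hu : ContDiffOn ℝ ∞ u Ω)
    (hp : ∀ x ∈ Ω, (hess u x).PosDef) (ham : AffineMaximalOn Ω u) (hx : x ∈ Ω) :
    Lo u (ell u) x =
      (((n : ℝ) + 1) / ((n : ℝ) + 2)) * ip u x (gr (ell u) x) (gr (ell u) x) :=
  (am_iff (hu.contDiffAt (hΩ.mem_nhds hx)) (hp x hx).det_pos).mp (ham x hx)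

end Vale.Agent.P252.C
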