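import Mathlib.Analysis.Calculus.FDeriv.Symmetric
import Mathlib.Analysis.InnerProductSpace.Calculus
import Vale.Agent.P252.MathlibUsed
import Vale.Agent.P252.Defs

/-! Matrix calculus for the Hessian of a smooth function: pointwise rules for `pd`, the derivative
of the determinant and of the inverse. -/

open scoped ContDiff Topology
open Filter

namespace Vale.Agent.P252.C

variable {n : ℕ}

/-- Smoothness at a point. -/
abbrev Sm (f : EuclideanSpace ℝ (Fin n) → ℝ) (x : EuclideanSpace ℝ (Fin n)) : Prop :=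
  ContDiffAt ℝ ∞ f x

lemma Sm.da {f : EuclideanSpace ℝ (Fin n) → ℝ} {x : EuclideanSpace ℝ (Fin n)} (h : Sm f x) :
    DifferentiableAt ℝ f x := h.differentiableAt (by simp)

lemma Sm.pd {f : EuclideanSpace ℝ (Fin n) → ℝ} {x : EuclideanSpace ℝ (Fin n)} (h : Sm f x)
    (i : Fin n) : Sm (pd i f) x := by
  unfold P252.pd
  have h1 : ContDiffAt ℝ ∞ (fderiv ℝ f) x := h.fderiv_right (by simp)
  exact h1.clm_apply contDiffAt_const

lemma Sm.ev {f : EuclideanSpace ℝ (Fin n) → ℝ} {x : EuclideanSpace ℝ (Fin n)} (h : Sm f x) :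
    ∀ᶠ y in 𝓝 x, DifferentiableAt ℝ f y := by
  have h1 : ContDiffAt ℝ 1 f x := h.of_le (by simp)
  filter_upwards [h1.eventually (by simp)] with y hy
  exact hy.differentiableAt (by simp)

lemma pd_congr {f g : EuclideanSpace ℝ (Fin n) → ℝ} {x : EuclideanSpace ℝ (Fin n)}
    (h : f =ᶠ[𝓝 x] g) (i : Fin n) : pd i f x = pd i g x := by
  unfold pd
  rw [h.fderiv_eq]

lemma pd_congr_ev {f g : EuclideanSpace ℝ (Fin n) → ℝ} {x : EuclideanSpace ℝ (Fin n)}
    (h : f =ᶠ[𝓝 x] g) (i : Fin n) : pd i f =ᶠ[𝓝 x] pd i g := by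
  filter_upwards [h.eventuallyEq_nhds] with y hy
  exact pd_congr hy i

lemma hess_congr {f g : EuclideanSpace ℝ (Fin n) → ℝ} {x : EuclideanSpace ℝ (Fin n)}
    (h : f =ᶠ[𝓝 x] g) : hess f x = hess g x := by
  ext i j
  exact pd_congr (pd_congr_ev h j) i

lemma pd_const (i : Fin n) (c : ℝ) (x : EuclideanSpace ℝ (Fin n)) :
    pd i (fun _ => c) x = 0 := by
  unfold pd
  simp

lemma pd_add {f g : EuclideanSpace ℝ (Fin n) → ℝ} {x : EuclideanSpace ℝ (Fin n)} (i : Fin n)
    (hf : DifferentiableAt ℝ f x) (hg : DifferentiableAt ℝ g x) :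
    pd i (fun y => f y + g y) x = pd i f x + pd i g x := by
  unfold pd
  rw [(hf.hasFDerivAt.fun_add hg.hasFDerivAt).fderiv]
  rfl

lemma pd_sub {f g : EuclideanSpace ℝ (Fin n) → ℝ} {x : EuclideanSpace ℝ (Fin n)} (i : Fin n)
    (hf : DifferentiableAt ℝ f x) (hg : DifferentiableAt ℝ g x) :
    pd i (fun y => f y - g y) x = pd i f x - pd i g x := by
  unfold pd
  rw [(hf.hasFDerivAt.fun_sub hg.hasFDerivAt).fderiv]
  rfl

lemma pd_neg {f : EuclideanSpace ℝ (Fin n) → ℝ} {x : EuclideanSpace ℝ (Fin n)} (i : Fin n) :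
    pd i (fun y => - f y) x = - pd i f x := by
  unfold pd
  rw [fderiv_fun_neg]
  rfl

lemma pd_mul {f g : EuclideanSpace ℝ (Fin n) → ℝ} {x : EuclideanSpace ℝ (Fin n)} (i : Fin n)
    (hf : DifferentiableAt ℝ f x) (hg : DifferentiableAt ℝ g x) :
    pd i (fun y => f y * g y) x = pd i f x * g x + f x * pd i g x := by
  unfold pd
  rw [(hf.hasFDerivAt.fun_mul hg.hasFDerivAt).fderiv]
  simp only [_root_.add_apply, _root_.smul_apply, smul_eq_mul]
  ring

lemma pd_const_mul {f : EuclideanSpace ℝ (Fin n) → ℝ} {x : EuclideanSpace ℝ (Fin n)} (i : Fin n)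
    (c : ℝ) (hf : DifferentiableAt ℝ f x) :
    pd i (fun y => c * f y) x = c * pd i f x := by
  rw [pd_mul i (differentiableAt_const c) hf, pd_const]
  ring

lemma pd_sum {ι : Type*} (s : Finset ι) {f : ι → EuclideanSpace ℝ (Fin n) → ℝ}
    {x : EuclideanSpace ℝ (Fin n)} (i : Fin n)
    (hf : ∀ a ∈ s, DifferentiableAt ℝ (f a) x) :
    pd i (fun y => ∑ a ∈ s, f a y) x = ∑ a ∈ s, pd i (f a) x := by
  unfold pd
  rw [(HasFDerivAt.fun_sum (fun a ha => (hf a ha).hasFDerivAt)).fderiv]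
  simp

lemma pd_coord (i j : Fin n) (x : EuclideanSpace ℝ (Fin n)) :
    pd i (fun y : EuclideanSpace ℝ (Fin n) => y j) x = if i = j then 1 else 0 := by
  unfold pd
  have h1 : HasFDerivAt (fun x : EuclideanSpace ℝ (Fin n) => x j)
      (EuclideanSpace.proj j : EuclideanSpace ℝ (Fin n) →L[ℝ] ℝ) x :=
      (EuclideanSpace.proj j : EuclideanSpace ℝ (Fin n) →L[ℝ] ℝ).hasFDerivAt
  rw [h1.fderiv]
  simp [eq_comm]

lemma sm_coord (j : Fin n) (x : EuclideanSpace ℝ (Fin n)) :
    Sm (fun y : EuclideanSpace ℝ (Fin n) => y j) x :=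
  (EuclideanSpace.proj j : EuclideanSpace ℝ (Fin n) →L[ℝ] ℝ).contDiff.contDiffAt

lemma pd_comp {f : EuclideanSpace ℝ (Fin n) → ℝ} {x : EuclideanSpace ℝ (Fin n)} {φ : ℝ → ℝ}
    {φ' : ℝ} (i : Fin n) (hφ : HasDerivAt φ φ' (f x)) (hf : DifferentiableAt ℝ f x) :
    pd i (fun y => φ (f y)) x = φ' * pd i f x := by
  unfold pd
  have h := hφ.comp_hasFDerivAt x hf.hasFDerivAt
  have h2 : fderiv ℝ (fun y => φ (f y)) x = φ' • fderiv ℝ f x := h.fderiv
  rw [h2]
  rfl

lemma nat_le_infty (m : ℕ) : (m : WithTop ℕ∞) ≤ ∞ := by exact_mod_cast le_top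

/-- Second derivatives commute. -/
lemma pd_comm {f : EuclideanSpace ℝ (Fin n) → ℝ} {x : EuclideanSpace ℝ (Fin n)} (h : Sm f x)
    (i j : Fin n) : pd i (pd j f) x = pd j (pd i f) x := by
  have h1 : ContDiffAt ℝ ∞ (fderiv ℝ f) x := h.fderiv_right (by simp)
  have h2 : DifferentiableAt ℝ (fderiv ℝ f) x := h1.differentiableAt (by simp)
  have key : ∀ a b : Fin n, pd a (pd b f) x =
      fderiv ℝ (fderiv ℝ f) x (EuclideanSpace.single a 1) (EuclideanSpace.single b 1) := by
    intro a b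
    unfold pd
    have h3 : HasFDerivAt (fun y => fderiv ℝ f y (EuclideanSpace.single b 1))
        ((fderiv ℝ (fderiv ℝ f) x).flip (EuclideanSpace.single b 1)) x := by
      have := h2.hasFDerivAt.clm_apply (hasFDerivAt_const (EuclideanSpace.single b (1 : ℝ)) x)
      refine this.congr_fderiv ?_
      ext v
      simp
    rw [h3.fderiv]
    rfl
  rw [key, key]
  exact (h.isSymmSndFDerivAt (by
    rw [minSmoothness_of_isRCLikeNormedField]
    have h5 := nat_le_infty 2
    rwa [Nat.cast_ofNat] at h5)) _ _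

lemma hess_apply (f : EuclideanSpace ℝ (Fin n) → ℝ) (x : EuclideanSpace ℝ (Fin n))
    (i j : Fin n) : hess f x i j = pd i (pd j f) x := rfl

lemma hess_symm {f : EuclideanSpace ℝ (Fin n) → ℝ} {x : EuclideanSpace ℝ (Fin n)} (h : Sm f x)
    (i j : Fin n) : hess f x i j = hess f x j i := pd_comm h i j

lemma sm_hess {f : EuclideanSpace ℝ (Fin n) → ℝ} {x : EuclideanSpace ℝ (Fin n)} (h : Sm f x)
    (i j : Fin n) : Sm (fun y => hess f y i j) x := (h.pd j).pd i

lemma Sm.ev' {f : EuclideanSpace ℝ (Fin n) → ℝ} {x : EuclideanSpace ℝ (Fin n)} (h : Sm f x)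
    (m : ℕ) : ∀ᶠ y in 𝓝 x, ContDiffAt ℝ m f y := by
  have h1 : ContDiffAt ℝ m f x := h.of_le (by exact_mod_cast le_top)
  exact h1.eventually (by simp)

/-- Third derivatives. -/
noncomputable def d3 (f : EuclideanSpace ℝ (Fin n) → ℝ) (x : EuclideanSpace ℝ (Fin n))
    (k i j : Fin n) : ℝ := pd k (fun y => hess f y i j) x


/-! ### Matrices depending smoothly on a point -/

section mat

variable {A : EuclideanSpace ℝ (Fin n) → Matrix (Fin n) (Fin n) ℝ} {x : EuclideanSpace ℝ (Fin n)}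

lemma sm_det (hA : ∀ i j, Sm (fun y => A y i j) x) : Sm (fun y => (A y).det) x := by
  unfold Sm
  simp only [Matrix.det_apply]
  refine ContDiffAt.sum fun σ _ => ?_
  simp only [Units.smul_def, zsmul_eq_mul]
  exact contDiffAt_const.mul (contDiffAt_prod fun i _ => hA _ _)

lemma sm_adjugate (hA : ∀ i j, Sm (fun y => A y i j) x) (i j : Fin n) :
    Sm (fun y => (A y).adjugate i j) x := by
  simp only [Matrix.adjugate_apply]
  apply sm_det
  intro a b
  simp only [Matrix.updateRow_apply]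
  by_cases h : a = j
  · simp only [h, if_true]
    exact contDiffAt_const
  · simp only [h, if_false]
    exact hA a b

lemma sm_inv (hA : ∀ i j, Sm (fun y => A y i j) x) (hd : (A x).det ≠ 0) (i j : Fin n) :
    Sm (fun y => (A y)⁻¹ i j) x := by
  have h1 : (fun y => (A y)⁻¹ i j) = fun y => ((A y).det)⁻¹ * (A y).adjugate i j := by
    funext y
    rw [Matrix.inv_def, Matrix.smul_apply, Ring.inverse_eq_inv', smul_eq_mul]
  rw [h1]
  exact ((sm_det hA).inv hd).mul (sm_adjugate hA i j)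

lemma ev_det_ne (hA : ∀ i j, Sm (fun y => A y i j) x) (hd : (A x).det ≠ 0) :
    ∀ᶠ y in 𝓝 x, (A y).det ≠ 0 :=
  (sm_det hA).continuousAt.eventually_ne hd

/-- Derivative of the determinant. -/
lemma pd_det (hA : ∀ i j, Sm (fun y => A y i j) x) (k : Fin n) :
    pd k (fun y => (A y).det) x =
      ∑ i, ∑ j, (A x).adjugate j i * pd k (fun y => A y i j) x := by
  let f : ContinuousMultilinearMap ℝ (fun _ : Fin n => Fin n → ℝ) ℝ :=
    { (Matrix.detRowAlternating (R := ℝ) (n := Fin n)).toMultilinearMap with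
      cont := by
        change Continuous fun M : Fin n → Fin n → ℝ => Matrix.det (Matrix.of M)
        exact Continuous.matrix_det continuous_id }
  have hf : ∀ m : Fin n → Fin n → ℝ, f m = Matrix.det (Matrix.of m) := fun m => rfl
  have hg : ∀ i : Fin n, HasFDerivAt (fun y => (fun j => A y i j : Fin n → ℝ))
      (ContinuousLinearMap.pi fun j => fderiv ℝ (fun y => A y i j) x) x := by
    intro i
    exact hasFDerivAt_pi.mpr fun j => (hA i j).da.hasFDerivAt
  have h := HasFDerivAt.multilinear_comp (f := f) hg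
  have e : (fun y => f fun i j => A y i j) = fun y => (A y).det := by
    funext y
    rw [hf]
    rfl
  rw [e] at h
  unfold pd
  rw [h.fderiv, _root_.sum_apply]
  refine Finset.sum_congr rfl fun i _ => ?_
  rw [ContinuousLinearMap.comp_apply, ContinuousMultilinearMap.toContinuousLinearMap_apply, hf]
  have e2 : (Matrix.of (Function.update (fun j k => A x j k) i
      ((ContinuousLinearMap.pi fun j => fderiv ℝ (fun y => A y i j) x)
        (EuclideanSpace.single k 1)))) = (A x).updateRow i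
      (fun j => fderiv ℝ (fun y => A y i j) x (EuclideanSpace.single k 1)) := by
    ext a b
    rw [Matrix.of_apply, Matrix.updateRow_apply]
    by_cases h : a = i
    · subst h; simp
    · simp [h]
  rw [e2, ← Matrix.cramer_transpose_apply, Matrix.cramer_eq_adjugate_mulVec,
    ← Matrix.adjugate_transpose]
  rfl

/-- Derivative of the determinant through the inverse. -/
lemma pd_det' (hA : ∀ i j, Sm (fun y => A y i j) x) (hd : (A x).det ≠ 0) (k : Fin n) :
    pd k (fun y => (A y).det) x =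
      (A x).det * ∑ i, ∑ j, (A x)⁻¹ j i * pd k (fun y => A y i j) x := by
  rw [pd_det hA k, Finset.mul_sum]
  refine Finset.sum_congr rfl fun i _ => ?_
  rw [Finset.mul_sum]
  refine Finset.sum_congr rfl fun j _ => ?_
  have e : (A x).adjugate j i = (A x).det * (A x)⁻¹ j i := by
    rw [Matrix.inv_def, Matrix.smul_apply, Ring.inverse_eq_inv', smul_eq_mul, ← mul_assoc,
      mul_inv_cancel₀ hd, one_mul]
  rw [e]
  ring

/-- Derivative of the logarithm of the determinant. -/
lemma pd_log_det (hA : ∀ i j, Sm (fun y => A y i j) x) (hd : (A x).det ≠ 0) (k : Fin n) :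
    pd k (fun y => Real.log (A y).det) x =
      ∑ i, ∑ j, (A x)⁻¹ j i * pd k (fun y => A y i j) x := by
  rw [pd_comp k (Real.hasDerivAt_log hd) (sm_det hA).da, pd_det' hA hd k, ← mul_assoc,
    inv_mul_cancel₀ hd, one_mul]

/-- Derivative of the inverse matrix. -/
lemma pd_inv (hA : ∀ i j, Sm (fun y => A y i j) x) (hd : (A x).det ≠ 0) (k i j : Fin n) :
    pd k (fun y => (A y)⁻¹ i j) x =
      - ∑ a, ∑ b, (A x)⁻¹ i a * pd k (fun y => A y a b) x * (A x)⁻¹ b j := by
  have hI := fun a b => sm_inv hA hd a b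
  -- `A * A⁻¹ = 1` near `x`
  have h1 : ∀ a b, (fun y => ∑ c, A y a c * (A y)⁻¹ c b) =ᶠ[𝓝 x]
      fun _ => (1 : Matrix (Fin n) (Fin n) ℝ) a b := by
    intro a b
    filter_upwards [ev_det_ne hA hd] with y hy
    have h2 : A y * (A y)⁻¹ = 1 := Matrix.mul_nonsing_inv _ (isUnit_iff_ne_zero.mpr hy)
    rw [← h2, Matrix.mul_apply]
  have h2 : ∀ a b, ∑ c, (pd k (fun y => A y a c) x * (A x)⁻¹ c b +
      A x a c * pd k (fun y => (A y)⁻¹ c b) x) = 0 := by
    intro a b
    have h3 := pd_congr (h1 a b) k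
    rw [pd_const, pd_sum (f := fun c y => A y a c * (A y)⁻¹ c b) _ k
      (fun c _ => ((hA a c).da.fun_mul (hI c b).da))] at h3
    rw [← h3]
    refine Finset.sum_congr rfl fun c _ => ?_
    exact (pd_mul k (hA a c).da (hI c b).da).symm
  have hM : (A x) * (Matrix.of fun a b => pd k (fun y => (A y)⁻¹ a b) x) =
      - ((Matrix.of fun a b => pd k (fun y => A y a b) x) * (A x)⁻¹) := by
    ext a b
    rw [Matrix.neg_apply, Matrix.mul_apply, Matrix.mul_apply]
    have := h2 a b
    rw [Finset.sum_add_distrib] at this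
    simp only [Matrix.of_apply]
    linarith
  have hN : (Matrix.of fun a b => pd k (fun y => (A y)⁻¹ a b) x) =
      - ((A x)⁻¹ * ((Matrix.of fun a b => pd k (fun y => A y a b) x) * (A x)⁻¹)) := by
    rw [← Matrix.mul_neg, ← hM, ← Matrix.mul_assoc,
      Matrix.nonsing_inv_mul _ (isUnit_iff_ne_zero.mpr hd), Matrix.one_mul]
  have h5 := congrFun (congrFun hN i) j
  rw [Matrix.of_apply, Matrix.neg_apply, Matrix.mul_apply] at h5
  rw [h5]
  congr 1
  refine Finset.sum_congr rfl fun a _ => ?_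
  rw [Matrix.mul_apply, Finset.mul_sum]
  refine Finset.sum_congr rfl fun b _ => ?_
  rw [Matrix.of_apply, mul_assoc]

end mat

end Vale.Agent.P252.C
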