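import Vale.Agent.P252.H392.Lop

/-! The divergence rule for fields that are only differentiable at the point, and the squared and
cubed positive part of a function. -/

open scoped ContDiff Topology
open Filter

namespace Vale.Agent.P252.C

variable {n : ℕ} {u : EuclideanSpace ℝ (Fin n) → ℝ} {x : EuclideanSpace ℝ (Fin n)}

/-- **Divergence rule**, for functions differentiable at the point. -/
theorem div_rule_da (hu : Sm u x) (hd : (hess u x).det ≠ 0) {f : EuclideanSpace ℝ (Fin n) → ℝ}
    {V : Fin n → EuclideanSpace ℝ (Fin n) → ℝ} (hf : DifferentiableAt ℝ f x)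
    (hV : ∀ j, DifferentiableAt ℝ (V j) x) :
    ∑ i, pd i (fun y => f y * ∑ j, (hess u y)⁻¹ i j * V j y) x =
      ip u x (gr f x) (fun j => V j x) +
        f x * (∑ i, ∑ j, (hess u x)⁻¹ i j * pd i (V j) x
          - ip u x (gr (ell u) x) (fun j => V j x)) := by
  have hI := fun i j => sm_uinv hu hd i j
  have h1 : ∀ i, pd i (fun y => f y * ∑ j, (hess u y)⁻¹ i j * V j y) x =
      pd i f x * (∑ j, (hess u x)⁻¹ i j * V j x) +
        f x * (∑ j, (pd i (fun y => (hess u y)⁻¹ i j) x * V j x +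
          (hess u x)⁻¹ i j * pd i (V j) x)) := by
    intro i
    have hs : ∀ j ∈ Finset.univ, DifferentiableAt ℝ
        (fun y => (hess u y)⁻¹ i j * V j y) x :=
      fun j _ => (hI i j).da.fun_mul (hV j)
    have h2 : DifferentiableAt ℝ (fun y => ∑ j, (hess u y)⁻¹ i j * V j y) x :=
      DifferentiableAt.fun_sum hs
    rw [pd_mul i hf h2, pd_sum (f := fun j y => (hess u y)⁻¹ i j * V j y) _ i hs]
    congr 2
    refine Finset.sum_congr rfl fun j _ => ?_
    rw [pd_mul i (hI i j).da (hV j)]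
  rw [Finset.sum_congr rfl fun i _ => h1 i, Finset.sum_add_distrib, ← Finset.mul_sum]
  have e1 : ∑ i, pd i f x * (∑ j, (hess u x)⁻¹ i j * V j x) =
      ip u x (gr f x) (fun j => V j x) := by
    unfold ip gr
    refine Finset.sum_congr rfl fun i _ => ?_
    rw [Finset.mul_sum]
    refine Finset.sum_congr rfl fun j _ => ?_
    ring
  have e2 : ∑ i, ∑ j, (pd i (fun y => (hess u y)⁻¹ i j) x * V j x +
      (hess u x)⁻¹ i j * pd i (V j) x) = - ip u x (gr (ell u) x) (fun j => V j x) +
        ∑ i, ∑ j, (hess u x)⁻¹ i j * pd i (V j) x := by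
    simp only [Finset.sum_add_distrib]
    congr 1
    rw [Finset.sum_comm]
    have e3 : ∀ j, ∑ i, pd i (fun y => (hess u y)⁻¹ i j) x * V j x =
        - ∑ i, (hess u x)⁻¹ i j * pd i (ell u) x * V j x := by
      intro j
      rw [← Finset.sum_mul, sum_pd_uinv hu hd j, neg_mul, Finset.sum_mul]
    rw [Finset.sum_congr rfl fun j _ => e3 j, Finset.sum_neg_distrib, Finset.sum_comm]
    rfl
  rw [e1, e2]
  ring

/-- `∂_i (f u^{ij} ∂_j h) = ⟨∇f, ∇h⟩ + f (L h - ⟨∇ℓ, ∇h⟩)`, for `f` differentiable at the point. -/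
theorem div_gr (hu : Sm u x) (hd : (hess u x).det ≠ 0) {f h : EuclideanSpace ℝ (Fin n) → ℝ}
    (hf : DifferentiableAt ℝ f x) (hh : Sm h x) :
    ∑ i, pd i (fun y => f y * ∑ j, (hess u y)⁻¹ i j * pd j h y) x =
      ip u x (gr f x) (gr h x) + f x * (Lo u h x - ip u x (gr (ell u) x) (gr h x)) :=
  div_rule_da hu hd (V := fun j y => pd j h y) hf fun j => (hh.pd j).da

/-- The gradient field of `h` with a `C¹` weight is `C¹`. -/
lemma c1_field (hu : Sm u x) (hd : (hess u x).det ≠ 0) {f h : EuclideanSpace ℝ (Fin n) → ℝ}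
    (hf : ContDiffAt ℝ 1 f x) (hh : Sm h x) (i : Fin n) :
    ContDiffAt ℝ 1 (fun y => f y * ∑ j, (hess u y)⁻¹ i j * pd j h y) x := by
  refine hf.mul (ContDiffAt.sum fun j _ => ?_)
  exact ((sm_uinv hu hd i j).of_le (by simp)).mul ((hh.pd j).of_le (by simp))

/-! #### Squares and cubes of the positive part -/

lemma hasDerivAt_posSq (s : ℝ) : HasDerivAt (fun s : ℝ => max s 0 ^ 2) (2 * max s 0) s := by
  rcases lt_trichotomy s 0 with h | h | h
  · rw [max_eq_right h.le, mul_zero]
    refine (hasDerivAt_const s (0 : ℝ)).congr_of_eventuallyEq ?_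
    filter_upwards [Iio_mem_nhds h] with y hy
    rw [max_eq_right (le_of_lt hy)]
    norm_num
  · subst h
    rw [hasDerivAt_iff_tendsto_slope_zero]
    have h1 : Tendsto (fun t : ℝ => max t 0) (𝓝[≠] 0) (𝓝 (2 * max 0 0)) := by
      have h2 : Continuous fun t : ℝ => max t 0 := continuous_id.max continuous_const
      have h3 := h2.tendsto 0
      simp only [max_self, mul_zero] at h3 ⊢
      exact h3.mono_left nhdsWithin_le_nhds
    refine h1.congr' ?_
    filter_upwards [self_mem_nhdsWithin] with t ht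
    have ht0 : t ≠ 0 := ht
    rw [zero_add, smul_eq_mul]
    rcases le_total t 0 with h4 | h4
    · rw [max_eq_right h4]; simp
    · rw [max_eq_left h4]
      field_simp
      simp
  · rw [max_eq_left h.le]
    have h2 := hasDerivAt_pow 2 s
    refine (h2.congr_of_eventuallyEq ?_).congr_deriv (by norm_num)
    filter_upwards [Ioi_mem_nhds h] with y hy
    rw [max_eq_left (le_of_lt hy)]

lemma posCube_eq (s : ℝ) : max s 0 ^ 3 = max s 0 ^ 2 * s := by
  rcases le_total s 0 with h | h
  · rw [max_eq_right h]; norm_num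
  · rw [max_eq_left h]; ring

lemma hasDerivAt_posCube (s : ℝ) :
    HasDerivAt (fun s : ℝ => max s 0 ^ 3) (3 * max s 0 ^ 2) s := by
  have h1 : (fun s : ℝ => max s 0 ^ 3) = fun s => max s 0 ^ 2 * s := funext posCube_eq
  rw [h1]
  have h2 := (hasDerivAt_posSq s).fun_mul (hasDerivAt_id' s)
  refine h2.congr_deriv ?_
  rcases le_total s 0 with h | h
  · rw [max_eq_right h]; norm_num
  · rw [max_eq_left h]; ring

lemma contDiff_posSq : ContDiff ℝ 1 (fun s : ℝ => max s 0 ^ 2) := by
  rw [contDiff_one_iff_deriv]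
  refine ⟨fun s => (hasDerivAt_posSq s).differentiableAt, ?_⟩
  have h : deriv (fun s : ℝ => max s 0 ^ 2) = fun s => 2 * max s 0 :=
    funext fun s => (hasDerivAt_posSq s).deriv
  rw [h]
  fun_prop

lemma contDiff_posCube : ContDiff ℝ 1 (fun s : ℝ => max s 0 ^ 3) := by
  rw [contDiff_one_iff_deriv]
  refine ⟨fun s => (hasDerivAt_posCube s).differentiableAt, ?_⟩
  have h : deriv (fun s : ℝ => max s 0 ^ 3) = fun s => 3 * max s 0 ^ 2 :=
    funext fun s => (hasDerivAt_posCube s).deriv
  rw [h]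
  fun_prop

end Vale.Agent.P252.C
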