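import Vale.Agent.P252.H392.Calc

/-! The Hessian metric of a smooth function: `ell = log det D²u`, the inner product `ip` of
covectors, the operator `Lo f = u^{ij} f_ij`, the divergence rule, and (AM) in terms of `ell`. -/

open scoped ContDiff Topology
open Filter

namespace Vale.Agent.P252.C

variable {n : ℕ}

/-- `ℓ = log det D²u`. -/
noncomputable def ell (u : EuclideanSpace ℝ (Fin n) → ℝ) (x : EuclideanSpace ℝ (Fin n)) : ℝ :=
  Real.log (hess u x).det

/-- The vector of partial derivatives. -/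
noncomputable def gr (f : EuclideanSpace ℝ (Fin n) → ℝ) (x : EuclideanSpace ℝ (Fin n)) :
    Fin n → ℝ := fun i => pd i f x

/-- `⟨a, b⟩ = u^{ij} a_i b_j`. -/
noncomputable def ip (u : EuclideanSpace ℝ (Fin n) → ℝ) (x : EuclideanSpace ℝ (Fin n))
    (a b : Fin n → ℝ) : ℝ := ∑ i, ∑ j, (hess u x)⁻¹ i j * a i * b j

/-- `L f = u^{ij} f_ij`. -/
noncomputable def Lo (u f : EuclideanSpace ℝ (Fin n) → ℝ) (x : EuclideanSpace ℝ (Fin n)) : ℝ :=
  ∑ i, ∑ j, (hess u x)⁻¹ i j * hess f x i j

section pointwise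

variable {u : EuclideanSpace ℝ (Fin n) → ℝ} {x : EuclideanSpace ℝ (Fin n)}

lemma gr_apply (f : EuclideanSpace ℝ (Fin n) → ℝ) (x : EuclideanSpace ℝ (Fin n)) (i : Fin n) :
    gr f x i = pd i f x := rfl

lemma hess_transpose (hu : Sm u x) : (hess u x).transpose = hess u x := by
  ext i j
  rw [Matrix.transpose_apply]
  exact hess_symm hu j i

lemma inv_symm (hu : Sm u x) (i j : Fin n) : (hess u x)⁻¹ i j = (hess u x)⁻¹ j i := by
  have h : ((hess u x)⁻¹).transpose = (hess u x)⁻¹ := by
    rw [Matrix.transpose_nonsing_inv, hess_transpose hu]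
  conv_lhs => rw [← h]
  rfl

lemma mul_inv_apply (hd : (hess u x).det ≠ 0) (i j : Fin n) :
    ∑ k, hess u x i k * (hess u x)⁻¹ k j = if i = j then 1 else 0 := by
  have h := Matrix.mul_nonsing_inv (hess u x) (isUnit_iff_ne_zero.mpr hd)
  have := congrFun (congrFun h i) j
  rw [Matrix.mul_apply, Matrix.one_apply] at this
  exact this

lemma inv_mul_apply (hd : (hess u x).det ≠ 0) (i j : Fin n) :
    ∑ k, (hess u x)⁻¹ i k * hess u x k j = if i = j then 1 else 0 := by
  have h := Matrix.nonsing_inv_mul (hess u x) (isUnit_iff_ne_zero.mpr hd)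
  have := congrFun (congrFun h i) j
  rw [Matrix.mul_apply, Matrix.one_apply] at this
  exact this

/-! #### The inner product -/

lemma ip_comm (hu : Sm u x) (a b : Fin n → ℝ) : ip u x a b = ip u x b a := by
  unfold ip
  rw [Finset.sum_comm]
  refine Finset.sum_congr rfl fun i _ => Finset.sum_congr rfl fun j _ => ?_
  rw [inv_symm hu j i]
  ring

lemma ip_add_left (a b c : Fin n → ℝ) : ip u x (a + b) c = ip u x a c + ip u x b c := by
  unfold ip
  simp only [Pi.add_apply, mul_add, add_mul, Finset.sum_add_distrib]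

lemma ip_add_right (a b c : Fin n → ℝ) : ip u x a (b + c) = ip u x a b + ip u x a c := by
  unfold ip
  simp only [Pi.add_apply, mul_add, Finset.sum_add_distrib]

lemma ip_smul_left (t : ℝ) (a b : Fin n → ℝ) : ip u x (t • a) b = t * ip u x a b := by
  unfold ip
  simp only [Pi.smul_apply, smul_eq_mul, Finset.mul_sum]
  refine Finset.sum_congr rfl fun i _ => Finset.sum_congr rfl fun j _ => ?_
  ring

lemma ip_smul_right (t : ℝ) (a b : Fin n → ℝ) : ip u x a (t • b) = t * ip u x a b := by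
  unfold ip
  simp only [Pi.smul_apply, smul_eq_mul, Finset.mul_sum]
  refine Finset.sum_congr rfl fun i _ => Finset.sum_congr rfl fun j _ => ?_
  ring

lemma ip_neg_left (a b : Fin n → ℝ) : ip u x (-a) b = - ip u x a b := by
  have := ip_smul_left (u := u) (x := x) (-1) a b
  simpa using this

lemma ip_neg_right (a b : Fin n → ℝ) : ip u x a (-b) = - ip u x a b := by
  have := ip_smul_right (u := u) (x := x) (-1) a b
  simpa using this

lemma ip_sub_left (a b c : Fin n → ℝ) : ip u x (a - b) c = ip u x a c - ip u x b c := by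
  rw [sub_eq_add_neg, ip_add_left, ip_neg_left]; ring

lemma ip_sub_right (a b c : Fin n → ℝ) : ip u x a (b - c) = ip u x a b - ip u x a c := by
  rw [sub_eq_add_neg, ip_add_right, ip_neg_right]; ring

lemma ip_zero_left (b : Fin n → ℝ) : ip u x 0 b = 0 := by simp [ip]

lemma ip_zero_right (a : Fin n → ℝ) : ip u x a 0 = 0 := by simp [ip]

lemma ip_self_nonneg (hp : (hess u x).PosDef) (a : Fin n → ℝ) : 0 ≤ ip u x a a := by
  have h := hp.inv.posSemidef.dotProduct_mulVec_nonneg a
  have e : star a ⬝ᵥ (hess u x)⁻¹.mulVec a = ip u x a a := by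
    unfold ip dotProduct Matrix.mulVec dotProduct
    refine Finset.sum_congr rfl fun i _ => ?_
    rw [Finset.mul_sum]
    refine Finset.sum_congr rfl fun j _ => ?_
    simp only [Pi.star_apply, star_trivial]
    ring
  rwa [e] at h

lemma ip_self_pos (hp : (hess u x).PosDef) {a : Fin n → ℝ} (ha : a ≠ 0) : 0 < ip u x a a := by
  have h := hp.inv.dotProduct_mulVec_pos ha
  have e : star a ⬝ᵥ (hess u x)⁻¹.mulVec a = ip u x a a := by
    unfold ip dotProduct Matrix.mulVec dotProduct
    refine Finset.sum_congr rfl fun i _ => ?_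
    rw [Finset.mul_sum]
    refine Finset.sum_congr rfl fun j _ => ?_
    simp only [Pi.star_apply, star_trivial]
    ring
  rwa [e] at h

/-- Cauchy-Schwarz. -/
lemma ip_sq_le (hu : Sm u x) (hp : (hess u x).PosDef) (a b : Fin n → ℝ) :
    ip u x a b ^ 2 ≤ ip u x a a * ip u x b b := by
  by_cases hb : b = 0
  · subst hb; simp [ip_zero_right]
  have h1 := ip_self_pos hp hb
  have h2 := ip_self_nonneg hp (ip u x b b • a - ip u x a b • b)
  rw [ip_sub_left, ip_sub_right, ip_sub_right, ip_smul_left, ip_smul_left, ip_smul_right,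
    ip_smul_right, ip_smul_left, ip_smul_left, ip_smul_right, ip_smul_right, ip_comm hu b a] at h2
  have h3 : 0 ≤ ip u x b b * (ip u x a a * ip u x b b - ip u x a b ^ 2) := by nlinarith only [h2]
  nlinarith only [nonneg_of_mul_nonneg_right h3 h1]

/-! #### Third derivatives -/

lemma d3_symm12 (hu : Sm u x) (k i j : Fin n) : d3 u x k i j = d3 u x i k j := by
  unfold d3 hess
  simp only [Matrix.of_apply]
  exact pd_comm (hu.pd j) k i

lemma d3_symm23 (hu : Sm u x) (k i j : Fin n) : d3 u x k i j = d3 u x k j i := by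
  unfold d3
  apply pd_congr
  have h2 := hu.ev' 3
  filter_upwards [h2] with y hy
  have h3 : pd i (pd j u) y = pd j (pd i u) y := by
    have h1 : ContDiffAt ℝ 2 (fderiv ℝ u) y := hy.fderiv_right (by norm_num)
    have h2 : DifferentiableAt ℝ (fderiv ℝ u) y := h1.differentiableAt (by simp)
    have key : ∀ a b : Fin n, pd a (pd b u) y =
        fderiv ℝ (fderiv ℝ u) y (EuclideanSpace.single a 1) (EuclideanSpace.single b 1) := by
      intro a b
      unfold pd
      have h3 : HasFDerivAt (fun y => fderiv ℝ u y (EuclideanSpace.single b 1))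
          ((fderiv ℝ (fderiv ℝ u) y).flip (EuclideanSpace.single b 1)) y := by
        have := h2.hasFDerivAt.clm_apply (hasFDerivAt_const (EuclideanSpace.single b (1 : ℝ)) y)
        refine this.congr_fderiv ?_
        ext v
        simp
      rw [h3.fderiv]
      rfl
    rw [key, key]
    exact (hy.isSymmSndFDerivAt (by rw [minSmoothness_of_isRCLikeNormedField]; norm_num)) _ _
  exact h3

/-! #### Derivatives of `ell` and of the inverse Hessian -/

lemma sm_hess_det (hu : Sm u x) : Sm (fun y => (hess u y).det) x := sm_det (sm_hess hu)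

lemma sm_uinv (hu : Sm u x) (hd : (hess u x).det ≠ 0) (i j : Fin n) :
    Sm (fun y => (hess u y)⁻¹ i j) x := sm_inv (sm_hess hu) hd i j

lemma sm_ell (hu : Sm u x) (hd : (hess u x).det ≠ 0) : Sm (ell u) x :=
  (sm_hess_det hu).log hd

/-- `∂_k ℓ = u^{ij} u_{kij}`. -/
lemma pd_ell (hu : Sm u x) (hd : (hess u x).det ≠ 0) (k : Fin n) :
    pd k (ell u) x = ∑ i, ∑ j, (hess u x)⁻¹ i j * d3 u x k i j := by
  have h := pd_log_det (sm_hess hu) hd k
  unfold ell
  rw [h]
  refine Finset.sum_congr rfl fun i _ => Finset.sum_congr rfl fun j _ => ?_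
  rw [inv_symm hu j i]
  rfl

/-- `∂_k u^{ij} = - u^{ia} u_{kab} u^{bj}`. -/
lemma pd_uinv (hu : Sm u x) (hd : (hess u x).det ≠ 0) (k i j : Fin n) :
    pd k (fun y => (hess u y)⁻¹ i j) x =
      - ∑ a, ∑ b, (hess u x)⁻¹ i a * d3 u x k a b * (hess u x)⁻¹ b j :=
  pd_inv (sm_hess hu) hd k i j

/-- `∂_i u^{ij} = - u^{ij} ℓ_i`. -/
lemma sum_pd_uinv (hu : Sm u x) (hd : (hess u x).det ≠ 0) (j : Fin n) :
    ∑ i, pd i (fun y => (hess u y)⁻¹ i j) x = - ∑ i, (hess u x)⁻¹ i j * pd i (ell u) x := by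
  have h1 : ∀ i, pd i (fun y => (hess u y)⁻¹ i j) x =
      - ∑ b, ∑ a, (hess u x)⁻¹ i a * d3 u x b i a * (hess u x)⁻¹ b j := by
    intro i
    rw [pd_uinv hu hd, Finset.sum_comm]
    congr 1
    refine Finset.sum_congr rfl fun b _ => Finset.sum_congr rfl fun a _ => ?_
    rw [d3_symm23 hu i a b, d3_symm12 hu i b a]
  rw [Finset.sum_congr rfl fun i _ => h1 i, Finset.sum_neg_distrib, Finset.sum_comm]
  congr 1
  refine Finset.sum_congr rfl fun b _ => ?_
  rw [pd_ell hu hd, Finset.mul_sum]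
  refine Finset.sum_congr rfl fun i _ => ?_
  rw [Finset.mul_sum]
  refine Finset.sum_congr rfl fun a _ => ?_
  ring

/-- The columns of the cofactor matrix of the Hessian are divergence free. -/
lemma sum_pd_cof (hu : Sm u x) (hd : (hess u x).det ≠ 0) (j : Fin n) :
    ∑ i, pd i (fun y => (hess u y).det * (hess u y)⁻¹ i j) x = 0 := by
  have h1 : ∀ i, pd i (fun y => (hess u y).det * (hess u y)⁻¹ i j) x =
      (hess u x).det * (pd i (ell u) x * (hess u x)⁻¹ i j) +
        (hess u x).det * pd i (fun y => (hess u y)⁻¹ i j) x := by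
    intro i
    rw [pd_mul i (sm_hess_det hu).da (sm_uinv hu hd i j).da, pd_det' (sm_hess hu) hd i]
    have := pd_log_det (sm_hess hu) hd i
    unfold ell
    rw [this]
    ring
  rw [Finset.sum_congr rfl fun i _ => h1 i, Finset.sum_add_distrib, ← Finset.mul_sum,
    ← Finset.mul_sum, sum_pd_uinv hu hd j, ← mul_add]
  have h2 : ∑ i, pd i (ell u) x * (hess u x)⁻¹ i j + -∑ i, (hess u x)⁻¹ i j * pd i (ell u) x
      = 0 := by
    rw [← sub_eq_add_neg, sub_eq_zero]
    exact Finset.sum_congr rfl fun i _ => mul_comm _ _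
  rw [h2, mul_zero]

/-- **Divergence rule**: `∂_i (f u^{ij} V_j) = ⟨∇f, V⟩ + f (u^{ij} ∂_i V_j - ⟨∇ℓ, V⟩)`. -/
theorem div_rule (hu : Sm u x) (hd : (hess u x).det ≠ 0) {f : EuclideanSpace ℝ (Fin n) → ℝ}
    {V : Fin n → EuclideanSpace ℝ (Fin n) → ℝ} (hf : Sm f x) (hV : ∀ j, Sm (V j) x) :
    ∑ i, pd i (fun y => f y * ∑ j, (hess u y)⁻¹ i j * V j y) x =
      ip u x (gr f x) (fun j => V j x) +
        f x * (∑ i, ∑ j, (hess u x)⁻¹ i j * pd i (V j) x
          - ip u x (gr (ell u) x) (fun j => V j x)) := by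
  have hI := fun i j => sm_uinv hu hd i j
  have h1 : ∀ i, pd i (fun y => f y * ∑ j, (hess u y)⁻¹ i j * V j y) x =
      pd i f x * (∑ j, (hess u x)⁻¹ i j * V j x) +
        f x * (∑ j, (pd i (fun y => (hess u y)⁻¹ i j) x * V j x +
          (hess u x)⁻¹ i j * pd i (V j) x)) := by
    intro i
    have hs : ∀ j ∈ Finset.univ, DifferentiableAt ℝ
        (fun y => (hess u y)⁻¹ i j * V j y) x :=
      fun j _ => (hI i j).da.fun_mul (hV j).da
    have h2 : DifferentiableAt ℝ (fun y => ∑ j, (hess u y)⁻¹ i j * V j y) x :=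
      DifferentiableAt.fun_sum hs
    rw [pd_mul i hf.da h2, pd_sum (f := fun j y => (hess u y)⁻¹ i j * V j y) _ i hs]
    congr 2
    refine Finset.sum_congr rfl fun j _ => ?_
    rw [pd_mul i (hI i j).da (hV j).da]
  rw [Finset.sum_congr rfl fun i _ => h1 i, Finset.sum_add_distrib, ← Finset.mul_sum]
  have e1 : ∑ i, pd i f x * (∑ j, (hess u x)⁻¹ i j * V j x) =
      ip u x (gr f x) (fun j => V j x) := by
    unfold ip gr
    refine Finset.sum_congr rfl fun i _ => ?_
    rw [Finset.mul_sum]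
    refine Finset.sum_congr rfl fun j _ => ?_
    ring
  have e2 : ∑ i, ∑ j, (pd i (fun y => (hess u y)⁻¹ i j) x * V j x +
      (hess u x)⁻¹ i j * pd i (V j) x) = - ip u x (gr (ell u) x) (fun j => V j x) +
        ∑ i, ∑ j, (hess u x)⁻¹ i j * pd i (V j) x := by
    simp only [Finset.sum_add_distrib]
    congr 1
    rw [Finset.sum_comm]
    have e3 : ∀ j, ∑ i, pd i (fun y => (hess u y)⁻¹ i j) x * V j x =
        - ∑ i, (hess u x)⁻¹ i j * pd i (ell u) x * V j x := by
      intro j
      rw [← Finset.sum_mul, sum_pd_uinv hu hd j, neg_mul, Finset.sum_mul]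
    rw [Finset.sum_congr rfl fun j _ => e3 j, Finset.sum_neg_distrib, Finset.sum_comm]
    rfl
  rw [e1, e2]
  ring

end pointwise

end Vale.Agent.P252.C
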