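import Vale.Agent.P252.H392.Lop
import Vale.Agent.P252.H888.StarDefs

/-! The exact divergence identity behind the key inequality. -/

open scoped ContDiff Topology
open Filter

namespace Vale.Agent.P252.C

open Vale.Agent.P252.H888 (Bf at' bt' av bv wt Yf qform StarIdentityAt)

variable {n : ℕ} {u : EuclideanSpace ℝ (Fin n) → ℝ} {x : EuclideanSpace ℝ (Fin n)}
  {S : Finset (Fin n)}

lemma ell_eq (u : EuclideanSpace ℝ (Fin n) → ℝ) : H888.ell u = ell u := rfl

lemma ip_eq (u : EuclideanSpace ℝ (Fin n) → ℝ) (x : EuclideanSpace ℝ (Fin n))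
    (a b : Fin n → ℝ) : H888.ip u x a b = ip u x a b := rfl

lemma sm_Bf (hu : Sm u x) : Sm (Bf S u) x := by
  unfold Sm Bf
  exact ContDiffAt.sub hu (ContDiffAt.sum fun i _ => (sm_coord i x).mul (hu.pd i))

lemma sm_at (hu : Sm u x) (i : Fin n) : Sm (fun y => at' S u y i) x := by
  unfold Sm at'
  by_cases h : i ∈ S
  · simp only [h, if_true]; exact contDiffAt_const
  · simp only [h, if_false]; exact hu.pd i

lemma sm_bt (hu : Sm u x) (i : Fin n) : Sm (fun y => bt' S u y i) x := by
  unfold Sm bt'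
  exact (ContDiffAt.sum fun m _ => (sm_coord m x).mul (sm_hess hu m i)).neg

/-- `∇B = ã + b̃`. -/
lemma gr_Bf (hu : Sm u x) : gr (Bf S u) x = at' S u x + bt' S u x := by
  funext i
  rw [gr_apply, Pi.add_apply]
  unfold Bf
  have h1 : ∀ m ∈ S, DifferentiableAt ℝ (fun y : EuclideanSpace ℝ (Fin n) => y m * pd m u y) x :=
    fun m _ => (sm_coord m x).da.fun_mul (hu.pd m).da
  rw [pd_sub (g := fun y => ∑ i ∈ S, y i * pd i u y) i hu.da (DifferentiableAt.fun_sum h1),
    pd_sum (f := fun m y => y m * pd m u y) S i h1]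
  have h2 : ∀ m ∈ S, pd i (fun y : EuclideanSpace ℝ (Fin n) => y m * pd m u y) x =
      (if i = m then pd m u x else 0) + x m * hess u x m i := by
    intro m _
    rw [pd_mul i (sm_coord m x).da (hu.pd m).da, pd_coord, hess_symm hu m i, hess_apply]
    split_ifs <;> ring
  rw [Finset.sum_congr rfl h2, Finset.sum_add_distrib, Finset.sum_ite_eq]
  unfold at' bt'
  split_ifs <;> ring

/-- `⟨b̃, V⟩ = - ∑_{m ∈ S} x_m V_m`. -/
lemma ip_bt (_hu : Sm u x) (hd : (hess u x).det ≠ 0) (V : Fin n → ℝ) :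
    ip u x (bt' S u x) V = - ∑ m ∈ S, x m * V m := by
  unfold ip bt'
  rw [Finset.sum_comm]
  have h1 : ∀ j, ∑ i, (hess u x)⁻¹ i j * (-∑ m ∈ S, x m * hess u x m i) * V j =
      - ∑ m ∈ S, x m * (if m = j then V j else 0) := by
    intro j
    have h2 : ∀ i, (hess u x)⁻¹ i j * (-∑ m ∈ S, x m * hess u x m i) * V j =
        - ∑ m ∈ S, x m * (hess u x m i * (hess u x)⁻¹ i j) * V j := by
      intro i
      rw [mul_neg, neg_mul, Finset.mul_sum, Finset.sum_mul]
      congr 1
      refine Finset.sum_congr rfl fun m _ => ?_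
      ring
    rw [Finset.sum_congr rfl fun i _ => h2 i, Finset.sum_neg_distrib, Finset.sum_comm]
    congr 1
    refine Finset.sum_congr rfl fun m _ => ?_
    rw [← Finset.sum_mul, ← Finset.mul_sum, mul_inv_apply hd]
    split_ifs <;> ring
  rw [Finset.sum_congr rfl fun j _ => h1 j, Finset.sum_neg_distrib, Finset.sum_comm]
  congr 1
  refine Finset.sum_congr rfl fun m _ => ?_
  rw [← Finset.mul_sum, Finset.sum_ite_eq]
  simp

/-- `⟨b̃, ã⟩ = 0`. -/
lemma ip_bt_at (hu : Sm u x) (hd : (hess u x).det ≠ 0) :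
    ip u x (bt' S u x) (at' S u x) = 0 := by
  rw [ip_bt hu hd, neg_eq_zero]
  refine Finset.sum_eq_zero fun m hm => ?_
  unfold at'
  rw [if_pos hm, mul_zero]

/-- `u^{ij} ∂_i ã_j = n - k`. -/
lemma trace_at (hu : Sm u x) (hd : (hess u x).det ≠ 0) :
    ∑ i, ∑ j, (hess u x)⁻¹ i j * pd i (fun y => at' S u y j) x = (n : ℝ) - S.card := by
  rw [Finset.sum_comm]
  have h1 : ∀ j, ∑ i, (hess u x)⁻¹ i j * pd i (fun y => at' S u y j) x =
      if j ∈ S then 0 else 1 := by
    intro j
    unfold at'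
    by_cases h : j ∈ S
    · simp only [h, if_true, pd_const, mul_zero, Finset.sum_const_zero]
    · simp only [h, if_false]
      have := mul_inv_apply (u := u) (x := x) hd j j
      rw [if_pos rfl] at this
      rw [← this]
      refine Finset.sum_congr rfl fun i _ => ?_
      rw [hess_symm hu j i, hess_apply]
      ring
  rw [Finset.sum_congr rfl fun j _ => h1 j]
  have h2 : ∀ j : Fin n, (if j ∈ S then (0 : ℝ) else 1) = 1 - if j ∈ S then 1 else 0 := by
    intro j; split_ifs <;> ring
  rw [Finset.sum_congr rfl fun j _ => h2 j, Finset.sum_sub_distrib]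
  simp

/-- `u^{ij} ∂_i b̃_j = - k + ⟨b̃, ∇ℓ⟩`. -/
lemma trace_bt (hu : Sm u x) (hd : (hess u x).det ≠ 0) :
    ∑ i, ∑ j, (hess u x)⁻¹ i j * pd i (fun y => bt' S u y j) x =
      -(S.card : ℝ) + ip u x (bt' S u x) (gr (ell u) x) := by
  rw [ip_bt hu hd]
  have h1 : ∀ i j, pd i (fun y => bt' S u y j) x =
      - ∑ m ∈ S, ((if i = m then hess u x m j else 0) + x m * d3 u x m i j) := by
    intro i j
    unfold bt'
    have h2 : ∀ m ∈ S, DifferentiableAt ℝ
        (fun y : EuclideanSpace ℝ (Fin n) => y m * hess u y m j) x :=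
      fun m _ => (sm_coord m x).da.fun_mul (sm_hess hu m j).da
    rw [pd_neg, pd_sum (f := fun m y => y m * hess u y m j) S i h2]
    congr 1
    refine Finset.sum_congr rfl fun m _ => ?_
    rw [pd_mul i (sm_coord m x).da (sm_hess hu m j).da, pd_coord]
    have h3 : pd i (fun y => hess u y m j) x = d3 u x m i j := by
      rw [d3_symm12 hu m i j]; rfl
    rw [h3]
    split_ifs <;> ring
  have h4 : ∀ i j, (hess u x)⁻¹ i j * pd i (fun y => bt' S u y j) x =
      - ∑ m ∈ S, ((if i = m then (hess u x)⁻¹ i j * hess u x m j else 0) +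
        x m * ((hess u x)⁻¹ i j * d3 u x m i j)) := by
    intro i j
    rw [h1, mul_neg, Finset.mul_sum]
    congr 1
    refine Finset.sum_congr rfl fun m _ => ?_
    split_ifs <;> ring
  simp only [h4, Finset.sum_neg_distrib, Finset.sum_add_distrib]
  have h5 : ∑ i, ∑ j, ∑ m ∈ S, (if i = m then (hess u x)⁻¹ i j * hess u x m j else 0) =
      (S.card : ℝ) := by
    have h6 : ∀ i, ∑ j, ∑ m ∈ S, (if i = m then (hess u x)⁻¹ i j * hess u x m j else 0) =
        if i ∈ S then 1 else 0 := by
      intro i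
      rw [Finset.sum_comm]
      have h7 : ∀ m ∈ S, ∑ j, (if i = m then (hess u x)⁻¹ i j * hess u x m j else 0) =
          if i = m then 1 else 0 := by
        intro m _
        by_cases h : i = m
        · subst h
          simp only [if_true]
          have := inv_mul_apply (u := u) (x := x) hd i i
          rw [if_pos rfl] at this
          rw [← this]
          refine Finset.sum_congr rfl fun j _ => ?_
          rw [hess_symm hu i j]
        · simp only [h, if_false, Finset.sum_const_zero]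
      rw [Finset.sum_congr rfl h7, Finset.sum_ite_eq]
    rw [Finset.sum_congr rfl fun i _ => h6 i]
    simp
  have h8 : ∑ i, ∑ j, ∑ m ∈ S, x m * ((hess u x)⁻¹ i j * d3 u x m i j) =
      ∑ m ∈ S, x m * gr (ell u) x m := by
    have h9 : ∀ i, ∑ j, ∑ m ∈ S, x m * ((hess u x)⁻¹ i j * d3 u x m i j) =
        ∑ m ∈ S, ∑ j, x m * ((hess u x)⁻¹ i j * d3 u x m i j) := fun i => Finset.sum_comm
    rw [Finset.sum_congr rfl fun i _ => h9 i, Finset.sum_comm]
    refine Finset.sum_congr rfl fun m _ => ?_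
    rw [gr_apply, pd_ell hu hd, Finset.mul_sum]
    refine Finset.sum_congr rfl fun i _ => ?_
    rw [Finset.mul_sum]
  rw [h5, h8]
  ring

/-- Trace of the derivative of a quotient. -/
lemma trace_div {f : EuclideanSpace ℝ (Fin n) → ℝ} {V : Fin n → EuclideanSpace ℝ (Fin n) → ℝ}
    (hf : Sm f x) (h0 : f x ≠ 0) (hV : ∀ j, Sm (V j) x) :
    ∑ i, ∑ j, (hess u x)⁻¹ i j * pd i (fun y => V j y / f y) x =
      (∑ i, ∑ j, (hess u x)⁻¹ i j * pd i (V j) x) / f x -
        ip u x (gr f x) (fun j => V j x) / f x ^ 2 := by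
  have h1 : ∀ i j, pd i (fun y => V j y / f y) x =
      pd i (V j) x / f x - pd i f x * V j x / f x ^ 2 := by
    intro i j
    have h2 : pd i (fun y => (f y)⁻¹) x = -(f x ^ 2)⁻¹ * pd i f x :=
      pd_comp i (hasDerivAt_inv h0) hf.da
    have h3 : DifferentiableAt ℝ (fun y => (f y)⁻¹) x := hf.da.fun_inv h0
    simp only [div_eq_mul_inv]
    rw [pd_mul i (hV j).da h3, h2]
    ring
  simp only [h1, mul_sub, Finset.sum_sub_distrib, Finset.sum_div]
  unfold ip gr
  simp only [Finset.sum_div]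
  congr 1
  · refine Finset.sum_congr rfl fun i _ => Finset.sum_congr rfl fun j _ => ?_
    ring
  · refine Finset.sum_congr rfl fun i _ => Finset.sum_congr rfl fun j _ => ?_
    ring

lemma sm_wt (hu : Sm u x) (hd : 0 < (hess u x).det) (hB : 0 < Bf S u x) (p : ℝ) :
    Sm (wt S u p) x := by
  unfold Sm wt
  exact ((sm_hess_det hu).sqrt hd.ne').mul ((sm_Bf hu).rpow_const_of_ne hB.ne')

/-- `∇(√D B^p) = √D B^p (∇ℓ / 2 + p ∇B / B)`. -/
lemma gr_wt (hu : Sm u x) (hd : 0 < (hess u x).det) (hB : 0 < Bf S u x) (p : ℝ) :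
    gr (wt S u p) x = wt S u p x • ((1 / 2 : ℝ) • gr (ell u) x + (p / Bf S u x) • gr (Bf S u) x) := by
  have hD := sm_hess_det hu
  have hE := sm_ell hu hd.ne'
  have hb : Sm (Bf S u) x := sm_Bf hu
  have h1 : wt S u p =ᶠ[𝓝 x] fun y => Real.exp ((1 / 2) * ell u y + p * Real.log (Bf S u y)) := by
    filter_upwards [hD.continuousAt.eventually (lt_mem_nhds hd),
      hb.continuousAt.eventually (lt_mem_nhds hB)] with y h2 h3
    unfold wt ell
    rw [Real.sqrt_eq_rpow, Real.rpow_def_of_pos h2, Real.rpow_def_of_pos h3, ← Real.exp_add]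
    congr 1
    ring
  have h4 : Sm (fun y => (1 / 2) * ell u y) x := contDiffAt_const.mul hE
  have hl : Sm (fun y => Real.log (Bf S u y)) x := hb.log hB.ne'
  have h5 : Sm (fun y => p * Real.log (Bf S u y)) x := contDiffAt_const.mul hl
  have h6 : wt S u p x = Real.exp ((1 / 2) * ell u x + p * Real.log (Bf S u x)) :=
    h1.self_of_nhds
  funext i
  rw [gr_apply, pd_congr h1 i, pd_comp i (Real.hasDerivAt_exp _) (h4.da.fun_add h5.da),
    pd_add i h4.da h5.da, pd_const_mul i _ hE.da, pd_const_mul i _ hl.da,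
    pd_comp i (Real.hasDerivAt_log hB.ne') hb.da, ← h6]
  simp only [Pi.smul_apply, Pi.add_apply, smul_eq_mul, gr_apply]
  ring

/-- **The exact divergence identity.** -/
theorem star_identity (hu : Sm u x) (hd : 0 < (hess u x).det)
    (ham : Lo u (ell u) x =
      (((n : ℝ) + 1) / ((n : ℝ) + 2)) * ip u x (gr (ell u) x) (gr (ell u) x))
    (hB : 0 < Bf S u x) (t : ℝ) : StarIdentityAt S t u x := by
  have hn2 : (0 : ℝ) < (n : ℝ) + 2 := by positivity
  have hE := sm_ell hu hd.ne'
  have hb : Sm (Bf S u) x := sm_Bf hu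
  have hat := fun i => sm_at (S := S) hu i
  have hbt := fun i => sm_bt (S := S) hu i
  -- smoothness of the vectors
  have hav : ∀ j, Sm (fun y => av S u y j) x := fun j => (hat j).div hb hB.ne'
  have hbv1 : ∀ j, Sm (fun y => bt' S u y j / Bf S u y) x := fun j => (hbt j).div hb hB.ne'
  have hG : ∀ j, Sm (fun y => pd j (ell u) y / ((n : ℝ) + 2)) x :=
    fun j => (hE.pd j).div_const _
  have hbv : ∀ j, Sm (fun y => bv S u y j) x := fun j => (hbv1 j).sub (hG j)
  have htav : ∀ j, Sm (fun y => t * av S u y j) x := fun j => contDiffAt_const.mul (hav j)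
  have hV : ∀ j, Sm (fun y => t * av S u y j + bv S u y j) x :=
    fun j => (htav j).add (hbv j)
  unfold StarIdentityAt Yf
  rw [div_rule hu hd.ne' (V := fun j y => t * av S u y j + bv S u y j)
    (sm_wt hu hd hB _) hV]
  -- the trace
  have hT : ∑ i, ∑ j, (hess u x)⁻¹ i j * pd i (fun y => t * av S u y j + bv S u y j) x =
      t * (∑ i, ∑ j, (hess u x)⁻¹ i j * pd i (fun y => at' S u y j / Bf S u y) x) +
      ((∑ i, ∑ j, (hess u x)⁻¹ i j * pd i (fun y => bt' S u y j / Bf S u y) x) -
        Lo u (ell u) x / ((n : ℝ) + 2)) := by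
    have h1 : ∀ i j, pd i (fun y => t * av S u y j + bv S u y j) x =
        t * pd i (fun y => at' S u y j / Bf S u y) x +
        (pd i (fun y => bt' S u y j / Bf S u y) x - hess (ell u) x i j / ((n : ℝ) + 2)) := by
      intro i j
      rw [pd_add i (htav j).da (hbv j).da, pd_const_mul i t (hav j).da]
      congr 1
      have h2 := pd_sub i (hbv1 j).da (hG j).da
      have h3 : pd i (fun y => pd j (ell u) y / ((n : ℝ) + 2)) x =
          hess (ell u) x i j / ((n : ℝ) + 2) := by
        have h4 := pd_const_mul i (((n : ℝ) + 2)⁻¹) (hE.pd j).da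
        have h5 : (fun y => ((n : ℝ) + 2)⁻¹ * pd j (ell u) y) =
            fun y => pd j (ell u) y / ((n : ℝ) + 2) := by
          funext y; rw [div_eq_inv_mul]
        rw [h5] at h4
        rw [h4, hess_apply, div_eq_inv_mul]
      rw [h3] at h2
      exact h2
    simp only [h1, mul_add, mul_sub, Finset.sum_add_distrib, Finset.sum_sub_distrib, Lo,
      Finset.mul_sum, Finset.sum_div]
    congr 1
    · refine Finset.sum_congr rfl fun i _ => Finset.sum_congr rfl fun j _ => ?_
      ring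
    · congr 1
      refine Finset.sum_congr rfl fun i _ => Finset.sum_congr rfl fun j _ => ?_
      ring
  have hB0 := hB.ne'
  rw [hT, trace_div hb hB0 hat, trace_div hb hB0 hbt, trace_at hu hd.ne', trace_bt hu hd.ne',
    gr_wt hu hd hB, ham]
  -- the vectors
  set A : Fin n → ℝ := av S u x with hA
  set b : Fin n → ℝ := bv S u x with hbb
  set G : Fin n → ℝ := gr (ell u) x with hGG
  set Bx : ℝ := Bf S u x with hBx
  have eA : at' S u x = Bx • A := by
    funext i
    rw [hA]
    unfold av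
    rw [Pi.smul_apply, smul_eq_mul, ← hBx, mul_div_cancel₀ _ hB0]
  have eb : bt' S u x = Bx • (b + (1 / ((n : ℝ) + 2)) • G) := by
    funext i
    rw [hbb, hGG]
    unfold bv
    simp only [Pi.smul_apply, Pi.add_apply, smul_eq_mul, gr_apply, ell_eq]
    rw [← hBx]
    field_simp
    ring
  have eV : (fun j => t * av S u x j + bv S u x j) = t • A + b := rfl
  have ea' : (fun j => at' S u x j) = Bx • A := eA
  have eb' : (fun j => bt' S u x j) = Bx • (b + (1 / ((n : ℝ) + 2)) • G) := eb
  have eg : gr (Bf S u) x = Bx • A + Bx • (b + (1 / ((n : ℝ) + 2)) • G) := by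
    rw [gr_Bf hu, eA, eb]
  have eo : ip u x A b = - (1 / ((n : ℝ) + 2)) * ip u x A G := by
    have h := ip_bt_at (S := S) hu hd.ne'
    rw [eA, eb, ip_smul_left, ip_smul_right, ip_add_left, ip_smul_left, ip_comm hu b A,
      ip_comm hu G A] at h
    have h2 : Bx * Bx ≠ 0 := mul_ne_zero hB0 hB0
    have h3 : Bx * Bx * (ip u x A b + 1 / ((n : ℝ) + 2) * ip u x A G) = 0 := by
      linarith only [h]
    have h4 := (mul_eq_zero.mp h3).resolve_left h2
    linarith only [h4]
  have ew : wt S u (-(n : ℝ) / 2) x = wt S u (-((n : ℝ) - 2) / 2) x / Bx := by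
    unfold wt
    rw [← hBx, mul_div_assoc]
    congr 1
    rw [eq_div_iff hB0]
    nth_rewrite 2 [← Real.rpow_one Bx]
    rw [← Real.rpow_add hB]
    congr 1
    ring
  rw [ea', eb', eg, eV, ew]
  unfold qform
  rw [ip_eq, ip_eq, ip_eq, ← hA, ← hbb]
  simp only [eb, ip_add_left, ip_add_right, ip_smul_left, ip_smul_right]
  rw [ip_comm hu b A, ip_comm hu G A, ip_comm hu G b, eo]
  field_simp
  ring

end Vale.Agent.P252.C
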